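import Vale.Agent.P088.R2.H230.W.CvV

/-!
# P088, stage 3: zone A, congruence at a point and linearity in the field
-/

open Set Filter
open scoped ContDiff Topology

set_option linter.unusedSectionVars false

noncomputable section

namespace Vale.Agent.P088.R2.H747.A

open Vale.Agent.P088.R2.H961.GW Vale.Agent.P088.R2.H960.W Vale.Agent.P088.R2.H644.Ch
open Vale.Agent.P088.R2.H230.W

variable {E ι κ : Type*} [NormedAddCommGroup E] [NormedSpace ℝ E] [Fintype ι] [Fintype κ]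
  {σ : Sl E ι} {τ : Sl E κ} {W W' : E → ℝ} {z : E}

/-! ## Congruence -/

theorem D_ev (σ : Sl E ι) (h : W =ᶠ[𝓝 z] W') (i : ι) : σ.D i W =ᶠ[𝓝 z] σ.D i W' := by
  filter_upwards [h.eventuallyEq_nhds] with w hw using D_congr_nhds σ hw i

theorem D_pt (σ : Sl E ι) (h : W =ᶠ[𝓝 z] W') (i : ι) : σ.D i W z = σ.D i W' z :=
  D_congr_nhds σ h i

theorem DD_pt (σ : Sl E ι) (τ : Sl E κ) (h : W =ᶠ[𝓝 z] W') (i : ι) (j : κ) :
    σ.D i (τ.D j W) z = σ.D i (τ.D j W') z := D_congr_nhds σ (D_ev τ h j) i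

theorem gr_ev (h : W =ᶠ[𝓝 z] W') : gr σ W z = gr σ W' z := funext fun i => D_pt σ h i

theorem TH_ev (h : W =ᶠ[𝓝 z] W') (A : ι → ℝ) (B : κ → ℝ) :
    TH σ τ W z A B = TH σ τ W' z A B := by
  unfold TH Sl.Hc Mc
  simp only [D_pt σ h, D_pt τ h, DD_pt σ σ h, DD_pt σ τ h, DD_pt τ τ h]

theorem GA_ev (h : W =ᶠ[𝓝 z] W') (A : ι → ℝ) (B : κ → ℝ) :
    GA σ τ W z A B = GA σ τ W' z A B := by
  unfold GA Gr
  simp only [D_pt σ h, D_pt τ h]

theorem tc_ev (h : W =ᶠ[𝓝 z] W') (c : ι → E → ℝ) (A : ι → ℝ) : tc σ c W z A = tc σ c W' z A := by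
  unfold tc
  simp only [D_pt σ h]

theorem cv_ev (h : W =ᶠ[𝓝 z] W') (e γ : ι → E → ℝ) (l : ι) :
    cv σ e W γ l z = cv σ e W' γ l z := by
  unfold cv
  rw [gr_ev h]

/-- `tc` depends only on the values of the field at the point. -/
theorem tc_val {c c' : ι → E → ℝ} (h : ∀ l, c l z = c' l z) (A : ι → ℝ) :
    tc σ c W z A = tc σ c' W z A := by
  unfold tc
  simp only [h]

/-! ## Linearity -/

theorem cv_mix (e γ γ₁ γ₂ : ι → E → ℝ) (p : ℝ)
    (h : ∀ l, γ l z = p * γ₁ l z + (1 - p) * γ₂ l z) (l : ι) :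
    cv σ e W γ l z = p * cv σ e W γ₁ l z + (1 - p) * cv σ e W γ₂ l z := by
  unfold cv
  have e1 : (fun j => γ j z) = p • (fun j => γ₁ j z) + (1 - p) • fun j => γ₂ j z := by
    funext j
    simp only [Pi.add_apply, Pi.smul_apply, smul_eq_mul, h j]
  rw [e1, fl_add, fl_smul, fl_smul]
  rfl

theorem tc_lin {c c₁ c₂ : ι → E → ℝ} {p : ℝ}
    (h : ∀ l, c l z = p * c₁ l z + (1 - p) * c₂ l z) (A : ι → ℝ) :
    tc σ c W z A = p * tc σ c₁ W z A + (1 - p) * tc σ c₂ W z A := by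
  unfold tc
  simp only [h]
  have e1 : ∑ l, (p * c₁ l z + (1 - p) * c₂ l z) * σ.D l W z =
      p * ∑ l, c₁ l z * σ.D l W z + (1 - p) * ∑ l, c₂ l z * σ.D l W z := by
    rw [Finset.mul_sum, Finset.mul_sum, ← Finset.sum_add_distrib]
    exact Finset.sum_congr rfl fun l _ => by ring
  have e2 : ∑ l, (p * c₁ l z + (1 - p) * c₂ l z) * A l =
      p * ∑ l, c₁ l z * A l + (1 - p) * ∑ l, c₂ l z * A l := by
    rw [Finset.mul_sum, Finset.mul_sum, ← Finset.sum_add_distrib]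
    exact Finset.sum_congr rfl fun l _ => by ring
  rw [e1, e2]
  ring

theorem tc_mix (e γ γ₁ γ₂ : ι → E → ℝ) (p : ℝ)
    (h : ∀ l, γ l z = p * γ₁ l z + (1 - p) * γ₂ l z) (A : ι → ℝ) :
    tc σ (cv σ e W γ) W z A =
      p * tc σ (cv σ e W γ₁) W z A + (1 - p) * tc σ (cv σ e W γ₂) W z A :=
  tc_lin (cv_mix e γ γ₁ γ₂ p h) A

/-! ## Sizes -/

/-- `|tc| ≤ 3 |e| |γ| |A| |U|`. -/
theorem tc_abs {e γ : ι → E → ℝ} (hw : 0 < dd (gr σ W z) (gr σ W z)) (A : ι → ℝ) :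
    |tc σ (cv σ e W γ) W z A| ≤
      3 * (nn (fun l => e l z) * nn (fun l => γ l z)) * (nn A * nn (sU σ z A)) := by
  rw [tc_TM]
  have e1 : (fun l => cv σ e W γ l z) =
      fl (fun l => e l z) (gr σ W z) (fun l => γ l z) := rfl
  rw [e1]
  obtain ⟨c, hc⟩ : ∃ c, c = fl (fun l => e l z) (gr σ W z) (fun l => γ l z) := ⟨_, rfl⟩
  have hs := nn_fl_mul_le (e := fun l => e l z) (γ := fun l => γ l z) hw
  rw [← hc] at hs ⊢
  obtain ⟨w, hw'⟩ : ∃ w, w = gr σ W z := ⟨_, rfl⟩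
  obtain ⟨U, hU⟩ : ∃ U, U = sU σ z A := ⟨_, rfl⟩
  rw [← hw'] at hs ⊢
  rw [← hU]
  unfold TM
  have h1 : |dd c w * dd A U| ≤ nn c * nn w * (nn A * nn U) := by
    rw [abs_mul]
    exact mul_le_mul (dd_le_nn c w) (dd_le_nn _ _) (abs_nonneg _)
      (mul_nonneg (nn_nonneg _) (nn_nonneg _))
  have h2 : |2 * (dd c A * dd w U)| ≤ 2 * (nn c * nn w * (nn A * nn U)) := by
    rw [abs_mul, abs_mul, abs_of_pos (by norm_num : (0:ℝ) < 2)]
    have := mul_le_mul (dd_le_nn c A) (dd_le_nn w U) (abs_nonneg _)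
      (mul_nonneg (nn_nonneg c) (nn_nonneg A))
    calc 2 * (|dd c A| * |dd w U|) ≤ 2 * (nn c * nn A * (nn w * nn U)) :=
          mul_le_mul_of_nonneg_left this (by norm_num)
      _ = _ := by ring
  have h3 : |dd c w * dd A U - 2 * (dd c A * dd w U)| ≤ 3 * (nn c * nn w) * (nn A * nn U) := by
    refine (abs_sub _ _).trans ?_
    linarith
  refine h3.trans (mul_le_mul_of_nonneg_right (mul_le_mul_of_nonneg_left hs (by norm_num))
    (mul_nonneg (nn_nonneg _) (nn_nonneg _)))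

/-- The components of the field against the gradient. -/
theorem cv_grad {e γ : ι → E → ℝ} (hw : 0 < dd (gr σ W z) (gr σ W z)) (i l : ι) :
    |cv σ e W γ i z * σ.D l W z| ≤ nn (fun l => e l z) * nn (fun l => γ l z) := by
  rw [abs_mul]
  have h1 : |cv σ e W γ i z| ≤ nn (fl (fun l => e l z) (gr σ W z) fun l => γ l z) :=
    abs_le_nn _ i
  have h2 : |σ.D l W z| ≤ nn (gr σ W z) := abs_le_nn (gr σ W z) l
  exact (mul_le_mul h1 h2 (abs_nonneg _) (nn_nonneg _)).trans (nn_fl_mul_le hw)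

end Vale.Agent.P088.R2.H747.A
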