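import Vale.Agent.P088.R2.H747.S.Zn

/-!
# P088, stage 3: zone A, the shape of the pointwise rows

`RowA`: fields, margin, smallness of the errors of both slots and the pointwise total inequality on
an open set.  `RowA.zone`: the zone inequality in the common form.
-/

open MeasureTheory Set Filter
open scoped ContDiff Topology

noncomputable section

namespace Vale.Agent.P088.R2.H747.A

open Vale.Agent.P088.R2.H961.GW Vale.Agent.P088.R2.H644 Vale.Agent.P088.R2.H960.W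
open Vale.Agent.P088.R2.H551.E Vale.Agent.P088.R2.H747.SW

variable {E ι : Type*} [NormedAddCommGroup E] [NormedSpace ℝ E] [Fintype ι]

/-- The pointwise total inequality. -/
def Tot (σ τ : Sl E ι) (v₁ v₂ W m : E → ℝ) (c c' : ι → E → ℝ) (η : ℝ) (z : E) : Prop :=
  ∀ (A : ι → ℝ) (B : ι → ℝ) (x y : ℝ),
    4 * (m z * ss σ A z + m z * ss τ B z) -
      η * (m z * σ.F W z * x ^ 2 + m z * τ.F W z * y ^ 2) ≤
    8 * (Ch.TH σ τ W z A B + tc σ c W z A + tc τ c' W z B) + qf σ τ v₁ v₂ W z A B x y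

/-- **The rows of zone A on a set.** -/
structure RowA (σ τ : Sl E ι) (v₁ v₂ W m : E → ℝ) (c c' : ι → E → ℝ) (η K : ℝ) (Ω : Set E) :
    Prop where
  hc : ∀ i, Sm Ω (c i)
  hc' : ∀ i, Sm Ω (c' i)
  hm : Sm Ω m
  sm₁ : ∀ z ∈ Ω, SmS σ W m c v₁ η K z
  sm₂ : ∀ z ∈ Ω, SmS τ W m c' v₂ η K z
  tot : ∀ z ∈ Ω, Tot σ τ v₁ v₂ W m c c' η z

variable {σ τ : Sl E ι} {U Ω Ω' S : Set E} {θ : E → ℝ} {v₁ v₂ W m χ : E → ℝ}
  {c c' : ι → E → ℝ} {η η' K κ₀ : ℝ} {z : E}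

theorem RowA.mono (r : RowA σ τ v₁ v₂ W m c c' η K Ω) (h : Ω' ⊆ Ω) :
    RowA σ τ v₁ v₂ W m c c' η K Ω' where
  hc i := (r.hc i).mono h
  hc' i := (r.hc' i).mono h
  hm := r.hm.mono h
  sm₁ z hz := r.sm₁ z (h hz)
  sm₂ z hz := r.sm₂ z (h hz)
  tot z hz := r.tot z (h hz)

/-- The total inequality with a larger `η`. -/
theorem Tot.le (t : Tot σ τ v₁ v₂ W m c c' η z) (h : η ≤ η') (h1 : 0 ≤ m z * σ.F W z)
    (h2 : 0 ≤ m z * τ.F W z) : Tot σ τ v₁ v₂ W m c c' η' z := by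
  intro A B x y
  have := t A B x y
  have h3 : 0 ≤ m z * σ.F W z * x ^ 2 + m z * τ.F W z * y ^ 2 := by positivity
  have := mul_le_mul_of_nonneg_right h h3
  linarith

/-- The total inequality from the one with the Euclidean margin. -/
theorem tot_euc (hm : 0 ≤ m z) (hs : ∀ A : ι → ℝ, ss σ A z ≤ 2 * ∑ i, A i ^ 2)
    (ht : ∀ A : ι → ℝ, ss τ A z ≤ 2 * ∑ i, A i ^ 2)
    (t : ∀ (A : ι → ℝ) (B : ι → ℝ) (x y : ℝ),
      4 * (m z * ((∑ i, A i ^ 2) + ∑ k, B k ^ 2)) -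
        η * (m z * σ.F W z * x ^ 2 + m z * τ.F W z * y ^ 2) ≤
      8 * (Ch.TH σ τ W z A B + tc σ c W z A + tc τ c' W z B) + qf σ τ v₁ v₂ W z A B x y) :
    Tot σ τ v₁ v₂ W (fun z => 1 / 2 * m z) c c' (2 * η) z := by
  intro A B x y
  have h := t A B x y
  have h1 := mul_le_mul_of_nonneg_left (hs A) hm
  have h2 := mul_le_mul_of_nonneg_left (ht B) hm
  have e1 : 2 * η * (1 / 2 * m z * σ.F W z * x ^ 2 + 1 / 2 * m z * τ.F W z * y ^ 2) =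
      η * (m z * σ.F W z * x ^ 2 + m z * τ.F W z * y ^ 2) := by ring
  dsimp only
  rw [e1]
  linarith

variable [MeasureSpace E] [FiniteDimensional ℝ E] [BorelSpace E]
  [(volume : Measure E).IsAddHaarMeasure]

/-- **The zone inequality of a row.** -/
theorem RowA.zone (ok : σ.Ok U θ) (ot : τ.Ok U θ) (hv₁ : Sm U v₁) (hv₂ : Sm U v₂) (hW : Sm U W)
    (r : RowA σ τ v₁ v₂ W m c c' η K Ω)
    (hχ : Sm U χ) (hΩ : IsOpen Ω) (h : Ω ⊆ U) (hS : IsClosed S)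
    (hSU : U ∩ S ⊆ Ω) (h0 : ∀ z ∈ U, z ∉ S → χ z = 0)
    (hκ : 0 < κ₀) (hη : 0 < η) (hη1 : η ≤ 1 / 200) (hηκ : η ≤ κ₀)
    (hK : 0 ≤ K) (hηK : 2 * K * η ≤ 1) :
    Zone σ τ U θ v₁ v₂ W χ ((MA σ τ W m κ₀).sm fun z => χ z ^ 2) (coA σ τ W m χ η) :=
  zoneA ok ot hv₁ hv₂ hW hχ hΩ h hS hSU h0 r.hc r.hc' r.hm hκ hη hη1 hηκ hK hηK r.sm₁ r.sm₂ r.tot

end Vale.Agent.P088.R2.H747.A
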